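import Vale.Agent.P065.R2.H919.Sharp

/-!
P065: better lower bounds for the number of halving lines and of `k`-sets.
-/

namespace Vale.Agent.Results.P065.ALowerBounds

open Vale.Agent.P065

/-- (a) `h(n) ≥ n ^ (1 + c (log log log n) ^ 2 / (log log n) ^ 3)` for all large even `n`,
(b) `e_k(n) ≥ n k ^ (c (log log log k) ^ 2 / (log log k) ^ 3)` for all large `k`, all `n ≥ 2 k`. -/
theorem result :
    (∃ (c : ℝ) (N : ℕ), 0 < c ∧ ∀ n : ℕ, N ≤ n → Even n →
      ∃ P : Finset (ℝ × ℝ), P.card = n ∧ GenPos P ∧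
        (n : ℝ) ^ (1 + c * ((Real.log (Real.log (Real.log n))) ^ 2 /
          (Real.log (Real.log n)) ^ 3)) ≤ halvingNumber P) ∧
    (∃ (c : ℝ) (K : ℕ), 0 < c ∧ ∀ k n : ℕ, K ≤ k → 2 * k ≤ n →
      ∃ P : Finset (ℝ × ℝ), P.card = n ∧ GenPos P ∧
        (n : ℝ) * (k : ℝ) ^ (c * ((Real.log (Real.log (Real.log k))) ^ 2 /
          (Real.log (Real.log k)) ^ 3)) ≤ kSetNumber P k) :=
  R2.H919.sharp

end Vale.Agent.Results.P065.ALowerBounds
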