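import Vale.Agent.P065.R2.H671.Snd

/-!
# P065: halving lines and `k`-sets against cups, caps and sets in convex position

`P` is a set of `n` points of the plane, no three collinear, and `u` is a direction such that no
two points of `P` lie on a line parallel to `u`.

* If `P` is covered by a set whose `u`-cups have at most `a` points, a set whose `u`-caps have
  at most `b` points and a set `D`, then `h(P) ≤ (a + b) n + 104 (#D n) ^ (2 / 3)`, and `P` has at
  most `2 (a + b) n + 208 (#D n) ^ (2 / 3) + 2` `k`-sets.  If `D` is empty, `2 h(P) ≤ (a + b) n`,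
  and `P` has at most `(a + b) n + 2` `k`-sets.
* `P` contains disjoint subsets `C 0, C 1, ...`, each a `u`-cup or a `u`-cap (as prescribed), with
  `2 h(P) ≤ (#(C j) + 2 j) n` and `h(P) ≤ #(C j) n + 104 ((#(C 0) + ... + #(C (j - 1))) n) ^ (2 / 3)`.
* If `P` is covered by `m` sets in convex position and a set whose subsets in convex position have
  at most `c` points, then `2 h(P) ≤ (4 m + c) n`, and `P` has at most
  `4 m n + 2 c min(k, n - k) + 2` `k`-sets.
-/

set_option autoImplicit false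

namespace Vale.Agent.Results.P065.ConvexCovers

open Vale.Agent.P065 Vale.Agent.P065.R2.H671

theorem result :
    (∀ P : Finset (ℝ × ℝ), GenPos P → ∀ u : ℝ × ℝ, u ≠ 0 →
      (∀ p ∈ P, ∀ q ∈ P, ∀ t : ℝ, p = q + t • u → p = q) →
      (∀ (A B D : Finset (ℝ × ℝ)) (a b : ℕ),
        (∀ X : Finset (ℝ × ℝ), X ⊆ A → IsCup u X → X.card ≤ a) →
        (∀ X : Finset (ℝ × ℝ), X ⊆ B → IsCup (-u) X → X.card ≤ b) →
        (∀ p ∈ P, p ∈ A ∨ p ∈ B ∨ p ∈ D) →
        (halvingNumber P : ℝ) ≤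
          (a + b) * P.card + 104 * ((D.card : ℝ) * P.card) ^ (2 / 3 : ℝ) ∧
        (∀ k : ℕ, 1 ≤ k → k + 1 ≤ P.card → (kSetNumber P k : ℝ) ≤
          2 * ((a + b) * P.card + 104 * ((D.card : ℝ) * P.card) ^ (2 / 3 : ℝ)) + 2) ∧
        (D = ∅ → 2 * halvingNumber P ≤ (a + b) * P.card ∧
          ∀ k : ℕ, 1 ≤ k → k + 1 ≤ P.card → kSetNumber P k ≤ (a + b) * P.card + 2)) ∧
      (∀ s : ℕ → Bool, ∃ C : ℕ → Finset (ℝ × ℝ), (∀ i j : ℕ, i ≠ j → Disjoint (C i) (C j)) ∧
        ∀ j d : ℕ, d = ∑ i ∈ Finset.range j, (C i).card →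
          C j ⊆ P ∧ IsCup (if s j = true then u else -u) (C j) ∧
          (halvingNumber P : ℝ) ≤
            (C j).card * P.card + 104 * ((d : ℝ) * P.card) ^ (2 / 3 : ℝ) ∧
          (∀ k : ℕ, 1 ≤ k → k + 1 ≤ P.card → (kSetNumber P k : ℝ) ≤
            2 * ((C j).card * P.card + 104 * ((d : ℝ) * P.card) ^ (2 / 3 : ℝ)) + 2) ∧
          2 * halvingNumber P ≤ ((C j).card + 2 * j) * P.card ∧
          ∀ k : ℕ, 1 ≤ k → k + 1 ≤ P.card →
            kSetNumber P k ≤ ((C j).card + 2 * j) * P.card + 2)) ∧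
    (∀ P : Finset (ℝ × ℝ), GenPos P → ∀ (A : Finset (ℝ × ℝ)) (F : Finset (Finset (ℝ × ℝ))) (c : ℕ),
      (∀ X : Finset (ℝ × ℝ), X ⊆ A → InConvexPosition X → X.card ≤ c) →
      (∀ C ∈ F, InConvexPosition C) →
      (∀ p ∈ P, p ∈ A ∨ ∃ C ∈ F, p ∈ C) →
      2 * halvingNumber P ≤ (4 * F.card + c) * P.card ∧
      ∀ k : ℕ, 1 ≤ k → k + 1 ≤ P.card →
        kSetNumber P k ≤ 4 * F.card * P.card + 2 * c * min k (P.card - k) + 2) :=
  ⟨fun P hg u hu hP =>
    ⟨fun A B D a b hA hB hc => ⟨halving_exc hg hu hP A B D a b hA hB hc,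
      fun _ hk1 hk2 => kset_exc hg hu hP A B D a b hA hB hc hk1 hk2, by
        intro hD
        have hc' : ∀ p ∈ P, p ∈ A ∨ p ∈ B := by
          intro p hp
          rcases hc p hp with h | h | h
          · exact Or.inl h
          · exact Or.inr h
          · rw [hD] at h
            exact absurd h (Finset.notMem_empty p)
        exact ⟨halving_dir hg hu hP A B a b hA hB hc',
          fun _ hk1 hk2 => kset_dir hg hu hP A B a b hA hB hc' hk1 hk2⟩⟩,
    fun s => ⟨pc s u P, fun _ _ hij => pc_disjoint hij, by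
      intro j d hd
      subst hd
      exact ⟨(pc_sub j).trans Finset.sdiff_subset, mx_cup _ _, (stairs_exc hg hu hP s j).1,
        (stairs_exc hg hu hP s j).2, (stairs hg hu hP s j).1, (stairs hg hu hP s j).2⟩⟩⟩,
    fun _ hg A F c hA hF hc => ⟨halving_le hg A F c hA hF hc,
      fun _ hk1 hk2 => kset_le hg A F c hA hF hc hk1 hk2⟩⟩

end Vale.Agent.Results.P065.ConvexCovers
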