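import Vale.Agent.P065.R2.H841.Lim.Fin

/-!
P065: the number of `k`-sets is linear in `n`, `|e_k(n) - γ_k n| ≤ 5 k γ_k`; the rates
`1 = γ_1 ≤ γ_2 ≤ ..` have the order of `h(2 k) / k`; regularity of `h`.
-/

namespace Vale.Agent.Results.P065.KSetsFromHalving

open Vale.Agent.P065

/-- (a) there are reals `1 = γ_1 ≤ γ_2 ≤ ..` with `|e_k(n) - γ_k n| ≤ 5 k γ_k` for all
`n > k ≥ 1`, and `h(2 k) / (8 k) ≤ γ_k ≤ 52 h(2 k) / k`;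
(b) `(n / (8 k)) h(2 k) ≤ e_k(n) ≤ 52 (n / k) h(2 k)` for all `1 ≤ k ≤ n / 2`;
(c) `h(2 m) / m ≤ 32 h(2 k) / k` for `1 ≤ m ≤ k`;
(d) `h(2 k) ≤ 14400 h(2 m)` for `1 ≤ m ≤ k ≤ 2 m`. -/
theorem result :
    (∃ γ : ℕ → ℝ, γ 1 = 1 ∧ (∀ m k : ℕ, 1 ≤ m → m ≤ k → γ m ≤ γ k) ∧
      ∀ k : ℕ, 1 ≤ k → (∀ n : ℕ, k < n → |(emax k n : ℝ) - γ k * n| ≤ 5 * k * γ k) ∧
        (hmax (2 * k) : ℝ) ≤ 8 * k * γ k ∧ k * γ k ≤ 52 * hmax (2 * k)) ∧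
    (∀ k n : ℕ, 1 ≤ k → 2 * k ≤ n →
      n * hmax (2 * k) ≤ 8 * k * emax k n ∧ k * emax k n ≤ 52 * n * hmax (2 * k)) ∧
    (∀ m k : ℕ, 1 ≤ m → m ≤ k → k * hmax (2 * m) ≤ 32 * m * hmax (2 * k)) ∧
    (∀ m k : ℕ, 1 ≤ m → m ≤ k → k ≤ 2 * m → hmax (2 * k) ≤ 14400 * hmax (2 * m)) := by
  refine ⟨R2.H841.linear_law2,
    fun k n hk hn => ⟨R2.H841.emax_lower2 hk hn, ?_⟩, fun m k hm hmk => ?_,
    fun m k hm hmk hkm => R2.H841.hmax_doubling hm hmk hkm⟩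
  · have h := R2.H841.emax_upper hk hn
    have h1 : (k + 1) * emax k n ≤ 52 * n * hmax (2 * k) := by exact_mod_cast h
    exact (Nat.mul_le_mul_right _ (Nat.le_succ k)).trans h1
  · exact (Nat.mul_le_mul_right _ (Nat.le_add_right k m)).trans (R2.H841.hmax_ratio hm hmk)

end Vale.Agent.Results.P065.KSetsFromHalving
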