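import Vale.Agent.P065.R2.H841.Sm.Main
import Vale.Agent.P065.R2.H841.Sm.MeasH
import Vale.Agent.P065.R2.H841.Sm.MeasK

/-!
P065: the expected number of halving lines and of `k`-sets of independently perturbed points is
linear.
-/

namespace Vale.Agent.Results.P065.SmoothedKSets

open Vale.Agent.P065 Vale.Agent.P065.R2.H841.Sm MeasureTheory Finset
open scoped ENNReal

open Classical in
/-- `a i` arbitrary points of the unit disc, `x i` independent with a law of density at most `L`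
carried by the disc of radius `r ≤ 1` about `a i` (first part), uniform in the disc of radius
`s ≤ 1` about `a i` (second part). -/
theorem result :
    (∀ (n : ℕ) (μ : Fin n → Measure (ℝ × ℝ)) (_ : ∀ i, IsProbabilityMeasure (μ i))
      (a : Fin n → ℝ × ℝ) (L r : ℝ), 0 ≤ L → 0 ≤ r → r ≤ 1 →
      (∀ i, (a i).1 ^ 2 + (a i).2 ^ 2 ≤ 1) → (∀ i, μ i ≤ ENNReal.ofReal L • volume) →
      (∀ i, μ i (disc (a i) r)ᶜ = 0) →
      (∀ᵐ x ∂(Measure.pi μ), Function.Injective x ∧ GenPos (univ.image x)) ∧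
      (AEMeasurable (fun x : Fin n → ℝ × ℝ => (halvingNumber (univ.image x) : ℝ≥0∞))
          (Measure.pi μ) ∧
        ∫⁻ x, (halvingNumber (univ.image x) : ℝ≥0∞) ∂(Measure.pi μ) ≤
          ENNReal.ofReal (8 * Real.pi * r * L * n)) ∧
      ∀ k : ℕ, 1 ≤ k → k + 1 ≤ n →
        AEMeasurable (fun x : Fin n → ℝ × ℝ => (kSetNumber (univ.image x) k : ℝ≥0∞))
          (Measure.pi μ) ∧
        ∫⁻ x, (kSetNumber (univ.image x) k : ℝ≥0∞) ∂(Measure.pi μ) ≤
          ENNReal.ofReal (16 * Real.pi * r * L * n + 2)) ∧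
    (∀ (n : ℕ) (a : Fin n → ℝ × ℝ) (s : ℝ), 0 < s → s ≤ 1 →
      (∀ i, (a i).1 ^ 2 + (a i).2 ^ 2 ≤ 1) →
      (∀ i, IsProbabilityMeasure (unif (a i) s)) ∧
      ∫⁻ x, (halvingNumber (univ.image x) : ℝ≥0∞) ∂(Measure.pi fun i => unif (a i) s) ≤
        ENNReal.ofReal (8 * n / s) ∧
      (∀ k : ℕ, 1 ≤ k → k + 1 ≤ n →
        ∫⁻ x, (kSetNumber (univ.image x) k : ℝ≥0∞) ∂(Measure.pi fun i => unif (a i) s) ≤
          ENNReal.ofReal (16 * n / s + 2)) ∧
      ∃ x : Fin n → ℝ × ℝ, Function.Injective x ∧ (∀ i, x i ∈ disc (a i) s) ∧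
        GenPos (univ.image x) ∧ (halvingNumber (univ.image x) : ℝ) ≤ 8 * n / s) := by
  refine ⟨fun n μ hp a L r hL hr hr1 ha hμ hs => ?_, fun n a s hs hs1 ha => ?_⟩
  · obtain ⟨h1, h2, h3⟩ := main μ a L r hL hr hr1 ha hμ hs
    have hinj : ∀ᵐ x ∂(Measure.pi μ), Function.Injective x := by
      filter_upwards [h1] with x hx using hx.1
    exact ⟨h1, ⟨aemeasurable_halving _ hinj, h2⟩,
      fun k hk hkn => ⟨aemeasurable_kSet _ hinj k, h3 k hk hkn⟩⟩
  · obtain ⟨_, h2, h3⟩ := main_unif a s hs hs1 ha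
    exact ⟨fun i => unif_prob (a i) hs, h2, h3, exists_moved a s hs hs1 ha⟩

end Vale.Agent.Results.P065.SmoothedKSets
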